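import Vale.Agent.Lib.P358.Final
import Vale.Agent.Lib.P358.G.ECIG

namespace Vale.Agent.Results.P358.A_full

open Vale.Agent.P358

/-- For every generalized amplitude damping channel `𝒜_{γ,ν}`, `(γ,ν) ∈ [0,1]²`, the Holevo
capacity is additive on all tensor powers, and the classical capacity equals the one-shot Holevo
capacity: entangled block inputs give no gain at any parameter. -/
theorem result (γ ν : ℝ) (h0 : 0 ≤ γ) (h1 : γ ≤ 1) (h2 : 0 ≤ ν) (h3 : ν ≤ 1) :
    (∀ n : ℕ, BddAbove (holevoSet (gadPow γ ν n))) ∧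
    (∀ n : ℕ, 1 ≤ n → holevoCapacity (gadPow γ ν n) = n * holevoCapacity (gad γ ν)) ∧
    classicalCapacity γ ν = holevoCapacity (gad γ ν) :=
  capacity_of_ECI γ ν h0 h1 h2 h3 (G.ECI_gad γ ν h0 h1 h2 h3)

end Vale.Agent.Results.P358.A_full
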