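import Vale.Agent.Lib.P358.Final

namespace Vale.Agent.Results.P358.A_main

open Vale.Agent.P358

/-- For the amplitude damping channel (`ν = 0`) and its mirror image (`ν = 1`), with any damping
`γ ∈ [0,1]`, the Holevo capacity is additive on all tensor powers and the classical capacity equals
the one-shot Holevo capacity. -/
theorem result (γ ν : ℝ) (h0 : 0 ≤ γ) (h1 : γ ≤ 1) (hν : ν = 0 ∨ ν = 1) :
    (∀ n : ℕ, BddAbove (holevoSet (gadPow γ ν n))) ∧
    (∀ n : ℕ, 1 ≤ n → holevoCapacity (gadPow γ ν n) = n * holevoCapacity (gad γ ν)) ∧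
    classicalCapacity γ ν = holevoCapacity (gad γ ν) := by
  rcases hν with rfl | rfl
  · exact capacity_of_ECI γ 0 h0 h1 le_rfl zero_le_one (ECI_ad γ h0 h1)
  · exact capacity_of_ECI γ 1 h0 h1 zero_le_one le_rfl (ECI_one γ h0 h1)

end Vale.Agent.Results.P358.A_main
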